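import Vale.Agent.P079.Final

namespace Vale.Agent.Results.P079.Reflexive

/-- Every reflexive real Banach space has the fixed point property for nonexpansive maps. -/
theorem result (X : Type*) [NormedAddCommGroup X] [NormedSpace ℝ X] [CompleteSpace X]
    (hX : Function.Surjective (NormedSpace.inclusionInDoubleDual ℝ X))
    (C : Set X) (hne : C.Nonempty) (hcl : IsClosed C) (hb : Bornology.IsBounded C)
    (hc : Convex ℝ C) (T : C → C) (hT : ∀ a b : C, ‖(T a : X) - (T b : X)‖ ≤ ‖(a : X) - (b : X)‖) :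
    ∃ a : C, T a = a := by
  classical
  obtain ⟨x, hx, h⟩ := Vale.Agent.P079.fixed_point hX hne hcl hb hc
    (T := fun x => if h : x ∈ C then (T ⟨x, h⟩ : X) else x)
    (fun x hx => by simp only [dif_pos hx]; exact (T ⟨x, hx⟩).2)
    (fun x hx y hy => by simp only [dif_pos hx, dif_pos hy]; exact hT ⟨x, hx⟩ ⟨y, hy⟩)
  rw [dif_pos hx] at h
  exact ⟨⟨x, hx⟩, Subtype.ext h⟩

end Vale.Agent.Results.P079.Reflexive
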